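import Vale.Agent.P331.Rule

namespace Vale.Agent.Results.P331.A_half

open MeasureTheory Vale.Agent.P331
open scoped NNReal ENNReal

theorem result (E : Type) [Fintype E] [DecidableEq E] (M : Matroid E) (hM : M.E = Set.univ) :
    ∃ acc : (E → ℝ≥0) → (E → Bool) → List (E × ℝ≥0) → Bool,
      (∀ (r : E → Bool) (l : List E), l.Nodup →
        Measurable fun p : (E → ℝ≥0) × (E → ℝ≥0) => acc p.1 r (l.map fun x => (x, p.2 x))) ∧
      (∀ (s v : E → ℝ≥0) (r : E → Bool) (l : List E), l.Nodup →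
        M.Indep (run (acc s r) v l : Set E)) ∧
      ∀ (D : E → Measure ℝ≥0) [∀ e, IsProbabilityMeasure (D e)]
        (π : (E → ℝ≥0) × (E → ℝ≥0) → List E), (∀ p, (π p).Nodup ∧ ∀ e, e ∈ π p) →
        (∀ l, MeasurableSet {p | π p = l}) →
        ∫⁻ v, (opt M v : ℝ≥0∞) ∂(Measure.pi D) ≤
          2 * ∫⁻ q : ((E → ℝ≥0) × (E → ℝ≥0)) × (E → Bool),
            ((∑ e ∈ run (acc q.1.1 q.2) q.1.2 (π (q.1.1 ⊓ q.1.2, q.1.1 ⊔ q.1.2)), q.1.2 e : ℝ≥0) :
              ℝ≥0∞) ∂(((Measure.pi D).prod (Measure.pi D)).prod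
                (ProbabilityTheory.uniformOn Set.univ)) :=
  ⟨acc M, fun r _ hl => meas_acc r hl, fun s v r _ hl => run_indep hM s v r hl,
    fun D _ π h1 h2 => guarantee hM D π h1 h2⟩

end Vale.Agent.Results.P331.A_half
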